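import Vale.Agent.P207.N3.H250.PFIn

/-!
# P207, line N3, P3G: exact symplectic germs

Composition, inverse, swap of exact symplectic germs, symplecticity; local inverses of germs;
the elementary germs (fibre shears, base changes, the quarter turn).
-/

open Set Filter Topology Metric MeasureTheory
open scoped ContDiff

noncomputable section

namespace Vale.Agent.P207.N3

theorem two_le_infty : (2 : WithTop ℕ∞) ≤ ∞ := WithTop.coe_le_coe.2 le_top

/-! ### local inverses -/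

/-- a germ with invertible derivative has an inverse germ -/
theorem exists_germ_inv {E : Type*} [NormedAddCommGroup E] [NormedSpace ℝ E] [CompleteSpace E]
    {F : E → E} (h0 : F 0 = 0) (hF : ∀ᶠ z in 𝓝 (0 : E), ContDiffAt ℝ ∞ F z)
    (hi : (fderiv ℝ F 0).IsInvertible) :
    ∃ G : E → E, G 0 = 0 ∧ (∀ᶠ z in 𝓝 (0 : E), ContDiffAt ℝ ∞ G z) ∧
      (∀ᶠ z in 𝓝 (0 : E), F (G z) = z) ∧ (∀ᶠ z in 𝓝 (0 : E), G (F z) = z) := by
  obtain ⟨A, hA⟩ := hi
  have hc := hF.self_of_nhds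
  have hd : HasFDerivAt F (A : E →L[ℝ] E) 0 := by
    rw [hA]; exact (hc.differentiableAt (by simp)).hasFDerivAt
  let e := hc.toOpenPartialHomeomorph F hd (by simp)
  have he : ∀ z, e z = F z := fun z => rfl
  have hs0 : (0 : E) ∈ e.source := hc.mem_toOpenPartialHomeomorph_source hd (by simp)
  have ht0 : (0 : E) ∈ e.target := by
    have := e.map_source hs0
    rwa [he, h0] at this
  have hsymm0 : e.symm 0 = 0 := by
    have := e.left_inv hs0
    rwa [he, h0] at this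
  have hcont : ContinuousAt e.symm 0 := e.continuousAt_symm ht0
  have ht : Tendsto e.symm (𝓝 0) (𝓝 0) := by
    have := hcont.tendsto
    rwa [hsymm0] at this
  -- derivative invertible near `0`
  have hinv : ∀ᶠ z in 𝓝 (0 : E), (fderiv ℝ F z).IsInvertible := by
    have h1 : ContinuousAt (fderiv ℝ F) 0 :=
      (hc.fderiv_right (m := 0) (by simp)).continuousAt
    have h2 : range ((↑) : (E ≃L[ℝ] E) → E →L[ℝ] E) ∈ 𝓝 (fderiv ℝ F 0) := by
      rw [← hA]; exact ContinuousLinearEquiv.nhds A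
    filter_upwards [h1.preimage_mem_nhds h2] with z hz
    obtain ⟨B, hB⟩ := hz
    exact ⟨B, hB⟩
  refine ⟨e.symm, hsymm0, ?_, ?_, ?_⟩
  · filter_upwards [e.open_target.mem_nhds ht0, ht.eventually hF, ht.eventually hinv]
      with z hz1 hz2 hz3
    obtain ⟨B, hB⟩ := hz3
    refine e.contDiffAt_symm (f₀' := B) hz1 ?_ hz2
    rw [hB]
    exact (hz2.differentiableAt (by simp)).hasFDerivAt
  · filter_upwards [e.open_target.mem_nhds ht0] with z hz
    exact e.right_inv hz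
  · filter_upwards [e.open_source.mem_nhds hs0] with z hz
    exact e.left_inv hz

/-! ### Riesz map -/

/-- the Riesz map as a real linear map -/
def rz : (E2 →L[ℝ] ℝ) →L[ℝ] E2 :=
  LinearMap.toContinuousLinearMap
    { toFun := fun l => (InnerProductSpace.toDual ℝ E2).symm l
      map_add' := fun a b => map_add _ a b
      map_smul' := fun c a => by simp }

theorem rz_apply (l : E2 →L[ℝ] ℝ) : rz l = (InnerProductSpace.toDual ℝ E2).symm l := rfl

theorem inner_rz (l : E2 →L[ℝ] ℝ) (v : E2) : inner ℝ (rz l) v = l v := by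
  rw [rz_apply, InnerProductSpace.toDual_symm_apply]

theorem gradient_eq_rz (f : E2 → ℝ) (x : E2) : gradient f x = rz (fderiv ℝ f x) := rfl

theorem inner_gradient (f : E2 → ℝ) (x v : E2) : inner ℝ (gradient f x) v = fderiv ℝ f x v :=
  inner_rz _ _

theorem contDiffAt_gradient {f : E2 → ℝ} {x : E2} (h : ContDiffAt ℝ ∞ f x) :
    ContDiffAt ℝ ∞ (gradient f) x := by
  have h1 : ContDiffAt ℝ ∞ (fderiv ℝ f) x := h.fderiv_right (by simp)
  exact (rz.contDiff.contDiffAt).comp x h1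

/-- pull back of a covector by `A`: the adjoint, as a smooth function of `A` and `π` -/
def co (A : E2 →L[ℝ] E2) (π : E2) : E2 := rz ((innerSL ℝ π).comp A)

theorem inner_co (A : E2 →L[ℝ] E2) (π v : E2) : inner ℝ (co A π) v = inner ℝ π (A v) := by
  rw [co, inner_rz]; rfl

@[simp] theorem co_zero (A : E2 →L[ℝ] E2) : co A 0 = 0 := by
  refine ext_inner_right ℝ fun v => ?_
  rw [inner_co]; simp

theorem co_one (π : E2) : co (1 : E2 →L[ℝ] E2) π = π := by
  refine ext_inner_right ℝ fun v => ?_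
  rw [inner_co]; simp

theorem contDiffAt_co {E : Type*} [NormedAddCommGroup E] [NormedSpace ℝ E]
    {A : E → E2 →L[ℝ] E2} {π : E → E2} {x : E} (hA : ContDiffAt ℝ ∞ A x)
    (hπ : ContDiffAt ℝ ∞ π x) : ContDiffAt ℝ ∞ (fun z => co (A z) (π z)) x := by
  have h1 : ContDiffAt ℝ ∞ (fun z => (innerSL ℝ) (π z)) x :=
    ((innerSL ℝ (E := E2)).contDiff.contDiffAt).comp x hπ
  exact (rz.contDiff.contDiffAt).comp x (h1.clm_comp hA)

/-! ### exact germs -/

theorem fderiv_fst_apply {Φ : E2 × E2 → E2 × E2} {z : E2 × E2} (h : DifferentiableAt ℝ Φ z)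
    (v : E2 × E2) : (fderiv ℝ Φ z v).1 = fderiv ℝ (fun w => (Φ w).1) z v := by
  rw [fderiv.fst h]; rfl

theorem fderiv_snd_apply {Φ : E2 × E2 → E2 × E2} {z : E2 × E2} (h : DifferentiableAt ℝ Φ z)
    (v : E2 × E2) : (fderiv ℝ Φ z v).2 = fderiv ℝ (fun w => (Φ w).2) z v := by
  rw [fderiv.snd h]; rfl

namespace ExG

variable {Φ Φ₁ Φ₂ : E2 × E2 → E2 × E2} {K K₁ K₂ : E2 × E2 → ℝ}

theorem tendsto (h : ExG Φ K) : Tendsto Φ (𝓝 0) (𝓝 0) := by
  have := h.smooth.self_of_nhds.continuousAt.tendsto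
  rwa [h.zero] at this

theorem comp (h₂ : ExG Φ₂ K₂) (h₁ : ExG Φ₁ K₁) :
    ExG (fun z => Φ₂ (Φ₁ z)) (fun z => K₁ z + K₂ (Φ₁ z)) where
  zero := by rw [h₁.zero, h₂.zero]
  smooth := by
    filter_upwards [h₁.smooth, h₁.tendsto.eventually h₂.smooth] with z hz1 hz2
    exact hz2.comp z hz1
  pot := by
    filter_upwards [h₁.smooth, h₁.pot, h₁.tendsto.eventually h₂.pot] with z hz1 hz2 hz3
    exact hz2.add (hz3.comp z hz1)
  exact := by
    filter_upwards [h₁.smooth, h₁.pot, h₁.tendsto.eventually h₂.pot,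
      h₁.tendsto.eventually h₂.smooth, h₁.exact, h₁.tendsto.eventually h₂.exact]
      with z hz1 hz2 hz3 hz4 hz5 hz6 v
    have d1 : DifferentiableAt ℝ Φ₁ z := hz1.differentiableAt (by simp)
    have d2 : DifferentiableAt ℝ Φ₂ (Φ₁ z) := hz4.differentiableAt (by simp)
    have d3 : DifferentiableAt ℝ K₁ z := hz2.differentiableAt (by simp)
    have d4 : DifferentiableAt ℝ K₂ (Φ₁ z) := hz3.differentiableAt (by simp)
    have e1 : fderiv ℝ (fun z => Φ₂ (Φ₁ z)) z v = fderiv ℝ Φ₂ (Φ₁ z) (fderiv ℝ Φ₁ z v) := by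
      rw [fderiv_fun_comp z d2 d1]; rfl
    have e2 : fderiv ℝ (fun z => K₂ (Φ₁ z)) z v = fderiv ℝ K₂ (Φ₁ z) (fderiv ℝ Φ₁ z v) := by
      rw [fderiv_fun_comp z d4 d1]; rfl
    have e3 : fderiv ℝ (fun z => K₁ z + K₂ (Φ₁ z)) z v
        = fderiv ℝ K₁ z v + fderiv ℝ (fun z => K₂ (Φ₁ z)) z v := by
      have := (d3.hasFDerivAt.add (d4.comp z d1).hasFDerivAt).fderiv
      have h' : (fun z => K₁ z + K₂ (Φ₁ z)) = K₁ + (K₂ ∘ Φ₁) := rfl
      rw [h', this]; rfl
    rw [e1, e3, e2, ← hz5 v, ← hz6 (fderiv ℝ Φ₁ z v)]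
    ring

theorem congr (h : ExG Φ K) {Φ' : E2 × E2 → E2 × E2} {K' : E2 × E2 → ℝ} (e : Φ' =ᶠ[𝓝 0] Φ)
    (e' : K' =ᶠ[𝓝 0] K) : ExG Φ' K' where
  zero := by rw [e.self_of_nhds, h.zero]
  smooth := by
    filter_upwards [h.smooth, e.eventuallyEq_nhds] with z hz hz'
    exact hz.congr_of_eventuallyEq hz'
  pot := by
    filter_upwards [h.pot, e'.eventuallyEq_nhds] with z hz hz'
    exact hz.congr_of_eventuallyEq hz'
  exact := by
    filter_upwards [h.exact, e.eventuallyEq_nhds, e'.eventuallyEq_nhds] with z hz h1 h2 v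
    have := hz v
    rw [← h1.fderiv_eq, ← h2.fderiv_eq, ← h1.self_of_nhds] at this
    exact this

/-- exact germs are symplectic -/
theorem sympl (h : ExG Φ K) : ∀ᶠ z in 𝓝 (0 : E2 × E2), ∀ a b,
    sympl (fderiv ℝ Φ z a) (fderiv ℝ Φ z b) = sympl a b := by
  filter_upwards [h.smooth, h.pot, h.exact.eventually_nhds] with z hs hp he a b
  have dΦ : DifferentiableAt ℝ Φ z := hs.differentiableAt (by simp)
  have d2 : DifferentiableAt ℝ (fderiv ℝ Φ) z :=
    (hs.fderiv_right (m := ∞) (by simp)).differentiableAt (by simp)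
  have d3 : DifferentiableAt ℝ (fderiv ℝ K) z :=
    (hp.fderiv_right (m := ∞) (by simp)).differentiableAt (by simp)
  have s1 : fderiv ℝ (fderiv ℝ Φ) z a b = fderiv ℝ (fderiv ℝ Φ) z b a :=
    (hs.isSymmSndFDerivAt (by simpa using two_le_infty)) a b
  have s2 : fderiv ℝ (fderiv ℝ K) z a b = fderiv ℝ (fderiv ℝ K) z b a :=
    (hp.isSymmSndFDerivAt (by simpa using two_le_infty)) a b
  -- derivative of the exactness identity
  have key : ∀ v w : E2 × E2, inner ℝ (fderiv ℝ Φ z w).2 (fderiv ℝ Φ z v).1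
      + inner ℝ (Φ z).2 (fderiv ℝ (fderiv ℝ Φ) z w v).1 - inner ℝ w.2 v.1
      = fderiv ℝ (fderiv ℝ K) z w v := by
    intro v w
    have e1 : HasFDerivAt (fun y => inner ℝ (Φ y).2 (fderiv ℝ Φ y v).1 - inner ℝ y.2 v.1)
        (fderiv ℝ (fun y => inner ℝ (Φ y).2 (fderiv ℝ Φ y v).1 - inner ℝ y.2 v.1) z) z := by
      apply DifferentiableAt.hasFDerivAt
      have q1 : DifferentiableAt ℝ (fun y => (Φ y).2) z := dΦ.snd
      have q2 : DifferentiableAt ℝ (fun y => (fderiv ℝ Φ y v).1) z :=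
        (d2.clm_apply (differentiableAt_const v)).fst
      exact (q1.inner ℝ q2).sub (differentiableAt_snd.inner ℝ (differentiableAt_const _))
    have e2 : (fun y => inner ℝ (Φ y).2 (fderiv ℝ Φ y v).1 - inner ℝ y.2 v.1)
        =ᶠ[𝓝 z] fun y => fderiv ℝ K y v := by
      filter_upwards [he] with y hy
      exact hy v
    have e3 : fderiv ℝ (fun y => fderiv ℝ K y v) z w = fderiv ℝ (fderiv ℝ K) z w v := by
      have := (d3.hasFDerivAt.clm_apply (hasFDerivAt_const v z)).fderiv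
      rw [this]; simp
    rw [← e3, ← e2.fderiv_eq]
    have q1 : HasFDerivAt (fun y => (Φ y).2) ((ContinuousLinearMap.snd ℝ E2 E2).comp
      (fderiv ℝ Φ z)) z := dΦ.hasFDerivAt.snd
    have q2 := (d2.hasFDerivAt.clm_apply (hasFDerivAt_const v z)).fst
    have q3 := (q1.inner ℝ q2).fun_sub
      ((hasFDerivAt_snd (𝕜 := ℝ) (p := z)).inner ℝ (hasFDerivAt_const v.1 z))
    rw [q3.fderiv]
    simp [fderivInnerCLM_apply]
    ring
  have k1 := key a b
  have k2 := key b a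
  rw [← s2] at k1
  rw [← s1] at k1
  simp only [Vale.Agent.P207.N3.sympl]
  rw [real_inner_comm (fderiv ℝ Φ z b).2 (fderiv ℝ Φ z a).1, real_inner_comm b.2 a.1]
  linarith

/-- the derivative of an exact germ is invertible -/
theorem isInvertible (h : ExG Φ K) : (fderiv ℝ Φ 0).IsInvertible := by
  have hs := h.sympl.self_of_nhds
  have hinj : Function.Injective (fderiv ℝ Φ 0 : E2 × E2 →ₗ[ℝ] E2 × E2) := by
    rw [← LinearMap.ker_eq_bot, LinearMap.ker_eq_bot']
    intro a ha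
    have ha' : fderiv ℝ Φ 0 a = 0 := ha
    have h1 := hs a (a.2, -a.1)
    rw [ha'] at h1
    simp only [Vale.Agent.P207.N3.sympl, Prod.fst_zero, Prod.snd_zero, inner_zero_left,
      sub_self, inner_neg_right, sub_neg_eq_add, real_inner_self_eq_norm_sq] at h1
    have h2 : ‖a.2‖ ^ 2 = 0 := by nlinarith [sq_nonneg ‖a.1‖, sq_nonneg ‖a.2‖]
    have h3 : ‖a.1‖ ^ 2 = 0 := by nlinarith [sq_nonneg ‖a.1‖, sq_nonneg ‖a.2‖]
    have h4 : a.2 = 0 := by simpa using h2
    have h5 : a.1 = 0 := by simpa using h3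
    exact Prod.ext h5 h4
  exact ⟨(LinearEquiv.ofInjectiveEndo _ hinj).toContinuousLinearEquiv,
    ContinuousLinearMap.ext fun v => rfl⟩

/-- the inverse germ -/
theorem inv (h : ExG Φ K) : ∃ Ψ : E2 × E2 → E2 × E2, ExG Ψ (fun z => - K (Ψ z)) ∧
    (∀ᶠ z in 𝓝 (0 : E2 × E2), Φ (Ψ z) = z) ∧ (∀ᶠ z in 𝓝 (0 : E2 × E2), Ψ (Φ z) = z) := by
  obtain ⟨Ψ, h0, hs, h1, h2⟩ := exists_germ_inv h.zero h.smooth h.isInvertible
  have ht : Tendsto Ψ (𝓝 0) (𝓝 0) := by
    have := hs.self_of_nhds.continuousAt.tendsto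
    rwa [h0] at this
  refine ⟨Ψ, ⟨h0, hs, ?_, ?_⟩, h1, h2⟩
  · filter_upwards [hs, ht.eventually h.pot] with z hz1 hz2
    exact (hz2.comp z hz1).neg
  · filter_upwards [hs, ht.eventually h.pot, ht.eventually h.smooth, ht.eventually h.exact,
      h1.eventually_nhds] with z hz1 hz2 hz3 hz4 hz5 v
    have d1 : DifferentiableAt ℝ Ψ z := hz1.differentiableAt (by simp)
    have d2 : DifferentiableAt ℝ K (Ψ z) := hz2.differentiableAt (by simp)
    have d3 : DifferentiableAt ℝ Φ (Ψ z) := hz3.differentiableAt (by simp)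
    have e1 : fderiv ℝ Φ (Ψ z) (fderiv ℝ Ψ z v) = v := by
      have q1 : fderiv ℝ (fun y => Φ (Ψ y)) z v = fderiv ℝ Φ (Ψ z) (fderiv ℝ Ψ z v) := by
        rw [fderiv_fun_comp z d3 d1]; rfl
      have q2 : fderiv ℝ (fun y => Φ (Ψ y)) z = fderiv ℝ (fun y => y) z :=
        Filter.EventuallyEq.fderiv_eq hz5
      rw [← q1, q2, fderiv_fun_id]; rfl
    have e2 : fderiv ℝ (fun y => - K (Ψ y)) z v = - fderiv ℝ K (Ψ z) (fderiv ℝ Ψ z v) := by
      rw [fderiv_fun_neg, fderiv_fun_comp z d2 d1]; rfl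
    have e3 := hz4 (fderiv ℝ Ψ z v)
    rw [e1, hz5.self_of_nhds] at e3
    rw [e2, ← e3]
    ring

end ExG

/-- the germ seen from the stable side: momentum reversed, `q` and `p` exchanged -/
def sw (Φ : E2 × E2 → E2 × E2) : E2 × E2 → E2 × E2 := fun z =>
  ((Φ (z.1, - z.2)).2, (Φ (z.1, - z.2)).1)

/-- the potential of `sw Φ` -/
def swK (Φ : E2 × E2 → E2 × E2) (K : E2 × E2 → ℝ) : E2 × E2 → ℝ := fun z =>
  inner ℝ (Φ (z.1, - z.2)).1 (Φ (z.1, - z.2)).2 - K (z.1, - z.2)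

theorem ExG.swap {Φ : E2 × E2 → E2 × E2} {K : E2 × E2 → ℝ} (h : ExG Φ K) :
    ExG (sw Φ) (swK Φ K) := by
  let ν : E2 × E2 →L[ℝ] E2 × E2 := (ContinuousLinearMap.fst ℝ E2 E2).prod
    (-(ContinuousLinearMap.snd ℝ E2 E2))
  have hν : ∀ z, ν z = (z.1, -z.2) := fun z => rfl
  have hν0 : Tendsto ν (𝓝 0) (𝓝 0) := by
    have := ν.continuous.tendsto 0
    rwa [map_zero] at this
  have cs : ∀ z, ContDiffAt ℝ ∞ Φ (ν z) → ContDiffAt ℝ ∞ (fun y => Φ (ν y)) z := fun z hz =>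
    hz.comp z ν.contDiff.contDiffAt
  refine ⟨?_, ?_, ?_, ?_⟩
  · have h0 : Φ (0, 0) = 0 := h.zero
    simp [sw, h0]
  · filter_upwards [hν0.eventually h.smooth] with z hz
    exact (cs z hz).snd.prodMk (cs z hz).fst
  · filter_upwards [hν0.eventually h.smooth, hν0.eventually h.pot] with z hz hz2
    exact ((cs z hz).fst.inner ℝ (cs z hz).snd).sub (hz2.comp z ν.contDiff.contDiffAt)
  · filter_upwards [hν0.eventually h.smooth, hν0.eventually h.pot, hν0.eventually h.exact]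
      with z hz hz2 hz3 v
    have d1 : HasFDerivAt (fun y => Φ (ν y)) ((fderiv ℝ Φ (ν z)).comp ν) z :=
      (hz.differentiableAt (by simp)).hasFDerivAt.comp z ν.hasFDerivAt
    have d2 : HasFDerivAt (fun y => K (ν y)) ((fderiv ℝ K (ν z)).comp ν) z :=
      (hz2.differentiableAt (by simp)).hasFDerivAt.comp z ν.hasFDerivAt
    have e1 : HasFDerivAt (sw Φ) _ z := d1.snd.prodMk d1.fst
    have e2 : HasFDerivAt (swK Φ K) _ z := (d1.fst.inner ℝ d1.snd).fun_sub d2
    have e3 := hz3 (ν v)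
    rw [e1.fderiv, e2.fderiv]
    simp only [hν] at e3
    simp only [sw, ContinuousLinearMap.prod_apply, ContinuousLinearMap.comp_apply,
      ContinuousLinearMap.coe_fst', ContinuousLinearMap.coe_snd', sub_apply,
      fderivInnerCLM_apply, hν]
    rw [← e3, real_inner_comm (fderiv ℝ Φ (z.1, -z.2) (v.1, -v.2)).1]
    simp only [inner_neg_left]
    ring

/-! ### elementary germs -/

theorem exg_shear {f : E2 → ℝ} (hf : ∀ᶠ t in 𝓝 (0 : E2), ContDiffAt ℝ ∞ f t)
    (h0 : gradient f 0 = 0) :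
    ExG (fun z => (z.1, z.2 + gradient f z.1)) (fun z => f z.1) := by
  have ht : Tendsto (Prod.fst : E2 × E2 → E2) (𝓝 0) (𝓝 0) := continuous_fst.tendsto 0
  refine ⟨?_, ?_, ?_, ?_⟩
  · simp only [Prod.fst_zero, Prod.snd_zero, h0, add_zero]; rfl
  · filter_upwards [ht.eventually hf] with z hz
    exact contDiffAt_fst.prodMk (contDiffAt_snd.add
      ((contDiffAt_gradient hz).comp z contDiffAt_fst))
  · filter_upwards [ht.eventually hf] with z hz
    exact hz.comp z contDiffAt_fst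
  · filter_upwards [ht.eventually hf] with z hz v
    have c1 : ContDiffAt ℝ ∞ (fun z : E2 × E2 => (z.1, z.2 + gradient f z.1)) z :=
      contDiffAt_fst.prodMk (contDiffAt_snd.add ((contDiffAt_gradient hz).comp z contDiffAt_fst))
    rw [fderiv_fst_apply (c1.differentiableAt (by simp))]
    have e1 : fderiv ℝ (fun z : E2 × E2 => f z.1) z v = fderiv ℝ f z.1 v.1 := by
      rw [fderiv_fun_comp z (hz.differentiableAt (by simp)) differentiableAt_fst, fderiv_fst]
      rfl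
    rw [e1, fderiv_fst]
    simp only [ContinuousLinearMap.coe_fst', inner_add_left, inner_gradient]
    ring

theorem eventually_isInvertible {ϑ : E2 → E2} (h : ∀ᶠ t in 𝓝 (0 : E2), ContDiffAt ℝ ∞ ϑ t)
    (hi : (fderiv ℝ ϑ 0).IsInvertible) : ∀ᶠ t in 𝓝 (0 : E2), (fderiv ℝ ϑ t).IsInvertible := by
  have h1 : ContinuousAt (fderiv ℝ ϑ) 0 :=
    (h.self_of_nhds.fderiv_right (m := 0) (by simp)).continuousAt
  obtain ⟨A, hA⟩ := hi
  have h2 : range ((↑) : (E2 ≃L[ℝ] E2) → E2 →L[ℝ] E2) ∈ 𝓝 (fderiv ℝ ϑ 0) := by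
    rw [← hA]; exact ContinuousLinearEquiv.nhds A
  filter_upwards [h1.preimage_mem_nhds h2] with z hz
  obtain ⟨B, hB⟩ := hz
  exact ⟨B, hB⟩

theorem contDiffAt_inverse {ϑ : E2 → E2} {t : E2} (h : ContDiffAt ℝ ∞ ϑ t)
    (hi : (fderiv ℝ ϑ t).IsInvertible) :
    ContDiffAt ℝ ∞ (fun t => (fderiv ℝ ϑ t).inverse) t := by
  obtain ⟨A, hA⟩ := hi
  have h1 : ContDiffAt ℝ ∞ ContinuousLinearMap.inverse (fderiv ℝ ϑ t) := by
    rw [← hA]; exact contDiffAt_map_inverse A
  exact h1.comp t (h.fderiv_right (by simp))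

theorem inverse_apply_self {A : E2 →L[ℝ] E2} (hi : A.IsInvertible) (v : E2) :
    A.inverse (A v) = v := by
  obtain ⟨B, hB⟩ := hi
  rw [← hB, ContinuousLinearMap.inverse_equiv]
  simp

theorem self_apply_inverse {A : E2 →L[ℝ] E2} (hi : A.IsInvertible) (v : E2) :
    A (A.inverse v) = v := by
  obtain ⟨B, hB⟩ := hi
  rw [← hB, ContinuousLinearMap.inverse_equiv]
  simp

theorem exg_base {ϑ : E2 → E2} (h : ∀ᶠ t in 𝓝 (0 : E2), ContDiffAt ℝ ∞ ϑ t) (h0 : ϑ 0 = 0)
    (hi : (fderiv ℝ ϑ 0).IsInvertible) :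
    ExG (fun z => (ϑ z.1, co (fderiv ℝ ϑ z.1).inverse z.2)) (fun _ => 0) := by
  have ht : Tendsto (Prod.fst : E2 × E2 → E2) (𝓝 0) (𝓝 0) := continuous_fst.tendsto 0
  have cs : ∀ z : E2 × E2, ContDiffAt ℝ ∞ ϑ z.1 → (fderiv ℝ ϑ z.1).IsInvertible →
      ContDiffAt ℝ ∞ (fun z : E2 × E2 => (ϑ z.1, co (fderiv ℝ ϑ z.1).inverse z.2)) z := by
    intro z h1 h2
    refine (h1.comp z contDiffAt_fst).prodMk (contDiffAt_co ?_ contDiffAt_snd)
    exact (contDiffAt_inverse h1 h2).comp z contDiffAt_fst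
  refine ⟨?_, ?_, ?_, ?_⟩
  · simp only [Prod.fst_zero, Prod.snd_zero, h0, co_zero]; rfl
  · filter_upwards [ht.eventually h, ht.eventually (eventually_isInvertible h hi)] with z h1 h2
    exact cs z h1 h2
  · exact Eventually.of_forall fun z => contDiffAt_const
  · filter_upwards [ht.eventually h, ht.eventually (eventually_isInvertible h hi)] with z h1 h2 v
    rw [fderiv_fst_apply ((cs z h1 h2).differentiableAt (by simp))]
    have e1 : fderiv ℝ (fun z : E2 × E2 => ϑ z.1) z v = fderiv ℝ ϑ z.1 v.1 := by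
      rw [fderiv_fun_comp z (h1.differentiableAt (by simp)) differentiableAt_fst, fderiv_fst]
      rfl
    rw [e1, inner_co, inverse_apply_self h2]
    simp

theorem exg_turn : ExG (fun z => (z.2, -z.1)) (fun z => - inner ℝ z.1 z.2) := by
  have cs : ∀ z : E2 × E2, ContDiffAt ℝ ∞ (fun z : E2 × E2 => (z.2, -z.1)) z := fun z =>
    contDiffAt_snd.prodMk contDiffAt_fst.neg
  refine ⟨?_, Eventually.of_forall cs, Eventually.of_forall fun z => ?_,
    Eventually.of_forall fun z v => ?_⟩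
  · simp
  · exact (contDiffAt_fst.inner ℝ contDiffAt_snd).neg
  · rw [fderiv_fst_apply ((cs z).differentiableAt (by simp))]
    have d := ((hasFDerivAt_fst (𝕜 := ℝ) (p := z)).inner ℝ
      (hasFDerivAt_snd (𝕜 := ℝ) (p := z))).fun_neg
    rw [d.fderiv, fderiv_snd]
    simp only [ContinuousLinearMap.coe_snd', neg_apply,
      ContinuousLinearMap.comp_apply, ContinuousLinearMap.prod_apply, fderivInnerCLM_apply,
      ContinuousLinearMap.coe_fst', inner_neg_left]
    rw [real_inner_comm v.1 z.2]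
    ring

theorem exg_turn' : ExG (fun z => (-z.2, z.1)) (fun z => - inner ℝ z.1 z.2) := by
  have cs : ∀ z : E2 × E2, ContDiffAt ℝ ∞ (fun z : E2 × E2 => (-z.2, z.1)) z := fun z =>
    contDiffAt_snd.neg.prodMk contDiffAt_fst
  refine ⟨?_, Eventually.of_forall cs, Eventually.of_forall fun z => ?_,
    Eventually.of_forall fun z v => ?_⟩
  · simp
  · exact (contDiffAt_fst.inner ℝ contDiffAt_snd).neg
  · rw [fderiv_fst_apply ((cs z).differentiableAt (by simp))]
    have d := ((hasFDerivAt_fst (𝕜 := ℝ) (p := z)).inner ℝ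
      (hasFDerivAt_snd (𝕜 := ℝ) (p := z))).fun_neg
    have e1 : fderiv ℝ (fun z : E2 × E2 => -z.2) z v = - v.2 := by
      rw [fderiv_fun_neg, fderiv_snd]; rfl
    rw [d.fderiv, e1]
    simp only [neg_apply,
      ContinuousLinearMap.comp_apply, ContinuousLinearMap.prod_apply, fderivInnerCLM_apply,
      ContinuousLinearMap.coe_fst', ContinuousLinearMap.coe_snd', inner_neg_right]
    rw [real_inner_comm v.1 z.2]
    ring

end Vale.Agent.P207.N3
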