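import Vale.Agent.P207.N3.H780.ExG

/-!
# P207, line N3, P3G: the exact symplectic chart straightening the two axes

`chart : ChartStmt`.
-/

open Set Filter Topology Metric MeasureTheory
open scoped ContDiff

noncomputable section

namespace Vale.Agent.P207.N3

theorem hess_inner {f : E2 → ℝ} {x : E2} (h : ContDiffAt ℝ ∞ f x) (v w : E2) :
    inner ℝ (hess f x v) w = fderiv ℝ (fderiv ℝ f) x v w := by
  have d : DifferentiableAt ℝ (fderiv ℝ f) x :=
    (h.fderiv_right (m := ∞) (by simp)).differentiableAt (by simp)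
  have e : HasFDerivAt (gradient f) (rz.comp (fderiv ℝ (fderiv ℝ f) x)) x :=
    rz.hasFDerivAt.comp x d.hasFDerivAt
  rw [hess, e.fderiv, ContinuousLinearMap.comp_apply, inner_rz]

theorem hess_symm {f : E2 → ℝ} {x : E2} (h : ContDiffAt ℝ ∞ f x) (v w : E2) :
    inner ℝ (hess f x v) w = inner ℝ v (hess f x w) := by
  rw [hess_inner h, real_inner_comm, hess_inner h]
  exact (h.isSymmSndFDerivAt (by simpa using two_le_infty)) v w

theorem co_neg (A : E2 →L[ℝ] E2) (π : E2) : co A (-π) = - co A π := by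
  refine ext_inner_right ℝ fun v => ?_
  rw [inner_co, inner_neg_left, inner_neg_left, inner_co]

theorem isInvertible_of_injective {A : E2 →L[ℝ] E2} (h : ∀ v, A v = 0 → v = 0) :
    A.IsInvertible := by
  have hinj : Function.Injective (A : E2 →ₗ[ℝ] E2) := by
    rw [← LinearMap.ker_eq_bot, LinearMap.ker_eq_bot']
    exact h
  exact ⟨(LinearEquiv.ofInjectiveEndo _ hinj).toContinuousLinearEquiv,
    ContinuousLinearMap.ext fun v => rfl⟩

theorem chart : ChartStmt := by
  intro u0 s0 ϑ ϑ' hu hs hϑ hϑ' gu gs z z' hi hH hn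
  set A := fderiv ℝ ϑ 0 with hA
  set H := hess u0 0 + hess s0 0 with hHdef
  -- the germ `g`
  let B : E2 → E2 →L[ℝ] E2 := fun t => (fderiv ℝ ϑ t).inverse
  let c : E2 → E2 := fun t => -(gradient s0 t + gradient u0 t)
  let g : E2 → E2 := fun t => co (B t) (c t)
  have hinv := eventually_isInvertible hϑ hi
  have hB : ∀ᶠ t in 𝓝 (0 : E2), ContDiffAt ℝ ∞ B t := by
    filter_upwards [hϑ, hinv] with t h1 h2
    exact contDiffAt_inverse h1 h2
  have hc : ∀ᶠ t in 𝓝 (0 : E2), ContDiffAt ℝ ∞ c t := by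
    filter_upwards [hu, hs] with t h1 h2
    exact ((contDiffAt_gradient h2).add (contDiffAt_gradient h1)).neg
  have hg : ∀ᶠ t in 𝓝 (0 : E2), ContDiffAt ℝ ∞ g t := by
    filter_upwards [hB, hc] with t h1 h2
    exact contDiffAt_co h1 h2
  have c0 : c 0 = 0 := by simp only [c, gu, gs, add_zero, neg_zero]
  have g0 : g 0 = 0 := by simp only [g, c0, co_zero]
  have dc : ∀ v, fderiv ℝ c 0 v = - H v := by
    intro v
    have d1 : DifferentiableAt ℝ (gradient u0) 0 :=
      (contDiffAt_gradient hu.self_of_nhds).differentiableAt (by simp)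
    have d2 : DifferentiableAt ℝ (gradient s0) 0 :=
      (contDiffAt_gradient hs.self_of_nhds).differentiableAt (by simp)
    have e := (d2.hasFDerivAt.fun_add d1.hasFDerivAt).fun_neg
    rw [e.fderiv, hHdef]
    change -(fderiv ℝ (gradient s0) 0 v + fderiv ℝ (gradient u0) 0 v) = _
    simp only [hess, add_apply]
    rw [add_comm]
  have dg : ∀ v w, inner ℝ (fderiv ℝ g 0 v) w = - inner ℝ (H v) (A.inverse w) := by
    intro v w
    have d1 : DifferentiableAt ℝ g 0 := hg.self_of_nhds.differentiableAt (by simp)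
    have d2 : DifferentiableAt ℝ B 0 := hB.self_of_nhds.differentiableAt (by simp)
    have d3 : DifferentiableAt ℝ c 0 := hc.self_of_nhds.differentiableAt (by simp)
    have e1 := d1.hasFDerivAt.inner ℝ (hasFDerivAt_const w (0 : E2))
    have e2 := d3.hasFDerivAt.inner ℝ (d2.hasFDerivAt.clm_apply (hasFDerivAt_const w (0 : E2)))
    have e3 : (fun t => inner ℝ (g t) w) = fun t => inner ℝ (c t) (B t w) := by
      funext t; exact inner_co _ _ _
    rw [e3] at e1
    have e4 := congrArg (fun L => L v) (e1.unique e2)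
    simp only [ContinuousLinearMap.comp_apply, ContinuousLinearMap.prod_apply,
      fderivInnerCLM_apply, zero_apply, inner_zero_right, zero_add, c0, inner_zero_left,
      dc, inner_neg_left] at e4
    exact e4
  have hsym : ∀ v w, inner ℝ (H v) w = inner ℝ v (H w) := by
    intro v w
    simp only [hHdef, add_apply, inner_add_left, inner_add_right]
    rw [hess_symm hu.self_of_nhds, hess_symm hs.self_of_nhds]
  have hinj : ∀ v, fderiv ℝ g 0 v = 0 → v = 0 := by
    intro v hv
    have h1 : H v = 0 := by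
      refine ext_inner_right ℝ fun w => ?_
      have := dg v (A w)
      rw [hv, inner_zero_left, inverse_apply_self hi] at this
      rw [inner_zero_left]; linarith
    have := inverse_apply_self hH v
    rw [h1, map_zero] at this
    exact this.symm
  have hgi : (fderiv ℝ g 0).IsInvertible := isInvertible_of_injective hinj
  obtain ⟨τ, τ0, τs, gτ, τg⟩ := exists_germ_inv g0 hg hgi
  have ht : Tendsto τ (𝓝 0) (𝓝 0) := by
    have := τs.self_of_nhds.continuousAt.tendsto
    rwa [τ0] at this
  -- the functions `θ`, `ψ`, `G`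
  let θ : E2 → E2 := fun p => ϑ (τ p)
  let ψ : E2 → E2 := fun p => ϑ' (τ p)
  let G : E2 → ℝ := fun p => inner ℝ p (ϑ (τ p)) + (u0 (τ p) + s0 (τ p))
  have hψ : ∀ᶠ p in 𝓝 (0 : E2), ContDiffAt ℝ ∞ ψ p := by
    filter_upwards [τs, ht.eventually hϑ'] with p h1 h2
    exact h2.comp p h1
  have hG : ∀ᶠ p in 𝓝 (0 : E2), ContDiffAt ℝ ∞ G p := by
    filter_upwards [τs, ht.eventually hϑ, ht.eventually hu, ht.eventually hs] with p h1 h2 h3 h4
    exact (contDiffAt_id.inner ℝ (h2.comp p h1)).add ((h3.comp p h1).add (h4.comp p h1))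
  have ψ0 : ψ 0 = 0 := by simp only [ψ, τ0, z']
  have gradG : ∀ᶠ p in 𝓝 (0 : E2), gradient G p = θ p := by
    filter_upwards [τs, ht.eventually hϑ, ht.eventually hu, ht.eventually hs, gτ,
      ht.eventually hinv] with p h1 h2 h3 h4 h5 h6
    refine ext_inner_right ℝ fun w => ?_
    rw [inner_gradient]
    have d1 : HasFDerivAt τ (fderiv ℝ τ p) p := (h1.differentiableAt (by simp)).hasFDerivAt
    have d2 : HasFDerivAt ϑ (fderiv ℝ ϑ (τ p)) (τ p) :=
      (h2.differentiableAt (by simp)).hasFDerivAt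
    have d3 : HasFDerivAt u0 (fderiv ℝ u0 (τ p)) (τ p) :=
      (h3.differentiableAt (by simp)).hasFDerivAt
    have d4 : HasFDerivAt s0 (fderiv ℝ s0 (τ p)) (τ p) :=
      (h4.differentiableAt (by simp)).hasFDerivAt
    have e : HasFDerivAt G _ p := ((hasFDerivAt_id p).inner ℝ (d2.comp p d1)).fun_add
      ((d3.comp p d1).fun_add (d4.comp p d1))
    rw [e.fderiv]
    have e5 : p = co (B (τ p)) (c (τ p)) := h5.symm
    have e6 : inner ℝ p (fderiv ℝ ϑ (τ p) (fderiv ℝ τ p w))
        = - (fderiv ℝ s0 (τ p) (fderiv ℝ τ p w) + fderiv ℝ u0 (τ p) (fderiv ℝ τ p w)) := by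
      have e5' : ∀ x, inner ℝ p x = inner ℝ (c (τ p)) (B (τ p) x) := fun x => by
        rw [← inner_co, ← e5]
      rw [e5']
      simp only [B]
      rw [inverse_apply_self h6]
      simp only [c, inner_neg_left, inner_add_left, inner_gradient]
    simp only [add_apply, ContinuousLinearMap.comp_apply,
      ContinuousLinearMap.prod_apply, fderivInnerCLM_apply, ContinuousLinearMap.id_apply,
      Function.comp, id, θ]
    rw [e6, real_inner_comm w]
    ring
  have gradG0 : gradient G 0 = 0 := by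
    rw [gradG.self_of_nhds]; simp only [θ, τ0, z]
  have dψ : fderiv ℝ ψ 0 = 1 := by
    ext1 v
    have d1 : HasFDerivAt τ (fderiv ℝ τ 0) 0 :=
      (τs.self_of_nhds.differentiableAt (by simp)).hasFDerivAt
    have d2 : HasFDerivAt ϑ' (fderiv ℝ ϑ' 0) (τ 0) := by
      rw [τ0]; exact (hϑ'.self_of_nhds.differentiableAt (by simp)).hasFDerivAt
    have d3 : HasFDerivAt g (fderiv ℝ g 0) (τ 0) := by
      rw [τ0]; exact (hg.self_of_nhds.differentiableAt (by simp)).hasFDerivAt
    have e1 : fderiv ℝ ψ 0 v = fderiv ℝ ϑ' 0 (fderiv ℝ τ 0 v) := by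
      have := (d2.comp 0 d1).fderiv
      have h' : ψ = ϑ' ∘ τ := rfl
      rw [h', this]; rfl
    have e2 : fderiv ℝ g 0 (fderiv ℝ τ 0 v) = v := by
      have h1 := (d3.comp 0 d1).fderiv
      have h2 : (g ∘ τ) =ᶠ[𝓝 0] fun y => y := gτ
      rw [h2.fderiv_eq, fderiv_fun_id] at h1
      exact (congrArg (fun L => L v) h1).symm
    rw [e1]
    conv_rhs => rw [one_apply_eq_self, ← e2]
    refine ext_inner_right ℝ fun w => ?_
    rw [dg]
    have h3 := hn (A.inverse w) (fderiv ℝ τ 0 v)
    rw [self_apply_inverse hi, real_inner_comm] at h3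
    have h4 : hess u0 0 (A.inverse w) + hess s0 0 (A.inverse w) = H (A.inverse w) := by
      simp only [hHdef, add_apply]
    rw [h3, h4, hsym, real_inner_comm]
  have hψi : (fderiv ℝ ψ 0).IsInvertible := by
    rw [dψ]; exact ⟨ContinuousLinearEquiv.refl ℝ E2, rfl⟩
  have inv1 : (1 : E2 →L[ℝ] E2).inverse = 1 := by
    have := ContinuousLinearMap.inverse_equiv (ContinuousLinearEquiv.refl ℝ E2)
    exact this
  -- the chart
  have hu' : ∀ᶠ t in 𝓝 (0 : E2), ContDiffAt ℝ ∞ (fun t => - u0 t) t := by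
    filter_upwards [hu] with t h; exact h.neg
  have gneg : ∀ t, gradient (fun t => - u0 t) t = - gradient u0 t := by
    intro t
    rw [gradient_eq_rz, gradient_eq_rz, fderiv_fun_neg, map_neg]
  have E := exg_turn'.comp ((exg_base hψ ψ0 hψi).comp ((exg_shear hG gradG0).comp
    (exg_turn.comp ((exg_base hϑ z hi).comp (exg_shear hu' (by rw [gneg, gu, neg_zero]))))))
  refine ⟨_, _, E, ?_, ?_⟩
  · refine Eventually.of_forall fun t => ?_
    simp only [gneg, add_neg_cancel, co_zero, gradG0, ψ0, dψ, inv1, add_zero, co_neg, co_one,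
      neg_neg]
  · have hϑ0 : Tendsto g (𝓝 0) (𝓝 0) := by
      have := hg.self_of_nhds.continuousAt.tendsto
      rwa [g0] at this
    filter_upwards [τg, hϑ0.eventually gradG] with t h1 h2
    have e1 : -gradient s0 t + gradient (fun t => - u0 t) t = c t := by
      rw [gneg]; simp only [c]; abel
    have e2 : co (fderiv ℝ ϑ t).inverse (-gradient s0 t + gradient (fun t => - u0 t) t) = g t := by
      rw [e1]
    simp only [e2, h2]
    have e3 : θ (g t) = ϑ t := by simp only [θ, h1]
    have e4 : ψ (g t) = ϑ' t := by simp only [ψ, h1]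
    rw [e3, e4, neg_add_cancel, co_zero, neg_zero]

end Vale.Agent.P207.N3
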