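import Vale.Agent.P207.N3.H780.Sides

/-!
# P207, line N3, P3G: the dynamics on the two sides

`PFIn.exP`: the Poincaré map is exact symplectic, with the travel time as potential.
-/

open Set Filter Topology Metric MeasureTheory
open scoped ContDiff

noncomputable section

namespace Vale.Agent.P207.N3

/-- conjugation of an exact germ with `(t, π) ↦ (t, -π)` -/
theorem ExG.ngm {P : E2 × E2 → E2 × E2} {ℓ : E2 × E2 → ℝ} (h : ExG P ℓ) :
    ExG (ngm P) (ngl ℓ) := by
  let ν : E2 × E2 →L[ℝ] E2 × E2 := (ContinuousLinearMap.fst ℝ E2 E2).prod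
    (-(ContinuousLinearMap.snd ℝ E2 E2))
  have hν : ∀ z, ν z = (z.1, -z.2) := fun z => rfl
  have hν0 : Tendsto ν (𝓝 0) (𝓝 0) := by
    have := ν.continuous.tendsto 0
    rwa [map_zero] at this
  have cs : ∀ z, ContDiffAt ℝ ∞ P (ν z) → ContDiffAt ℝ ∞ (fun y => P (ν y)) z := fun z hz =>
    hz.comp z ν.contDiff.contDiffAt
  refine ⟨?_, ?_, ?_, ?_⟩
  · have h0 : P (0, 0) = 0 := h.zero
    simp [N3.ngm, h0]
  · filter_upwards [hν0.eventually h.smooth] with z hz
    exact (cs z hz).fst.prodMk (cs z hz).snd.neg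
  · filter_upwards [hν0.eventually h.pot] with z hz
    exact (hz.comp z ν.contDiff.contDiffAt).neg
  · filter_upwards [hν0.eventually h.smooth, hν0.eventually h.pot, hν0.eventually h.exact]
      with z hz hz2 hz3 v
    have d1 : HasFDerivAt (fun y => P (ν y)) ((fderiv ℝ P (ν z)).comp ν) z :=
      (hz.differentiableAt (by simp)).hasFDerivAt.comp z ν.hasFDerivAt
    have d2 : HasFDerivAt (fun y => ℓ (ν y)) ((fderiv ℝ ℓ (ν z)).comp ν) z :=
      (hz2.differentiableAt (by simp)).hasFDerivAt.comp z ν.hasFDerivAt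
    have e1 : HasFDerivAt (N3.ngm P) _ z := d1.fst.prodMk d1.snd.fun_neg
    have e2 : HasFDerivAt (ngl ℓ) _ z := d2.fun_neg
    have e3 := hz3 (ν v)
    rw [e1.fderiv, e2.fderiv]
    simp only [hν] at e3
    simp only [N3.ngm, ContinuousLinearMap.prod_apply, ContinuousLinearMap.comp_apply,
      ContinuousLinearMap.coe_fst', neg_apply, hν]
    rw [← e3]
    simp only [inner_neg_left]
    ring

/-- the tangent vectors of a leaf -/
theorem hasFDerivAt_lf {u : E2 → ℝ} {t : E2} (h : ContDiffAt ℝ ∞ u t) :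
    HasFDerivAt (fun t => (t, gradient u t)) ((ContinuousLinearMap.id ℝ E2).prod (hess u t)) t :=
  (hasFDerivAt_id t).prodMk
    ((contDiffAt_gradient h).differentiableAt (by simp)).hasFDerivAt

theorem hasFDerivAt_lf' {u : E2 → ℝ} {t : E2} (h : ContDiffAt ℝ ∞ u t) :
    HasFDerivAt (fun t => (t, - gradient u t))
      ((ContinuousLinearMap.id ℝ E2).prod (-hess u t)) t :=
  (hasFDerivAt_id t).prodMk
    ((contDiffAt_gradient h).differentiableAt (by simp)).hasFDerivAt.fun_neg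

namespace PFIn

variable {N N' : E2 → E2} {h : ℝ} (I : PFIn N N' h)

theorem P_tendsto : Tendsto I.P (𝓝 0) (𝓝 0) := by
  have := I.P_smooth.self_of_nhds.continuousAt.tendsto
  rwa [I.P_zero] at this

/-- exactness along the unstable leaves -/
theorem exact_u : ∀ᶠ z in 𝓝 (0 : E2 × E2), ∀ v : E2,
    inner ℝ (I.P (lf I.u z)).2 (fderiv ℝ I.P (lf I.u z) (v, hess (I.u z.1) z.2 v)).1
      - inner ℝ (gradient (I.u z.1) z.2) v
      = fderiv ℝ I.ℓ (lf I.u z) (v, hess (I.u z.1) z.2 v) := by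
  obtain ⟨c, hc⟩ := I.P_leaf
  have tN : Tendsto (fun z : E2 × E2 => (N' z.1, (I.P (lf I.u z)).1)) (𝓝 0) (𝓝 (0, 0)) := by
    refine Tendsto.prodMk_nhds ?_ ?_
    · have h1 : Tendsto N' (𝓝 0) (𝓝 0) := by
        have := I.N'_cont.tendsto
        rwa [I.N'_zero] at this
      exact h1.comp (continuous_fst.tendsto (0 : E2 × E2))
    · exact (continuous_fst.tendsto (0 : E2 × E2)).comp (I.P_tendsto.comp I.lfu_tendsto)
  filter_upwards [hc.eventually_nhds, I.uJ.smooth, I.lfu_tendsto.eventually I.P_smooth,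
    I.lfu_tendsto.eventually I.ℓ_smooth, tN.eventually I.uJ.smooth] with z h1 h2 h3 h4 h5 v
  have c1 : Tendsto (fun t : E2 => (z.1, t)) (𝓝 z.2) (𝓝 z) := by
    have := (Continuous.prodMk_right z.1 : Continuous fun t : E2 => (z.1, t)).tendsto z.2
    exact this
  have d0 := hasFDerivAt_lf h2
  have dP : HasFDerivAt (fun t => I.P (t, gradient (I.u z.1) t)) _ z.2 :=
    (h3.differentiableAt (by simp) : DifferentiableAt ℝ I.P (lf I.u z)).hasFDerivAt.comp z.2 d0
  have dℓ : HasFDerivAt (fun t => I.ℓ (t, gradient (I.u z.1) t)) _ z.2 :=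
    (h4.differentiableAt (by simp) : DifferentiableAt ℝ I.ℓ (lf I.u z)).hasFDerivAt.comp z.2 d0
  have dL : HasFDerivAt (fun t => I.u (N' z.1) (I.P (t, gradient (I.u z.1) t)).1) _ z.2 :=
    (h5.differentiableAt (by simp) :
      DifferentiableAt ℝ (I.u (N' z.1)) (I.P (lf I.u z)).1).hasFDerivAt.comp z.2 dP.fst
  have dR : HasFDerivAt (fun t => I.u z.1 t + I.ℓ (t, gradient (I.u z.1) t) + c z.1) _ z.2 :=
    ((h2.differentiableAt (by simp)).hasFDerivAt.fun_add dℓ).add_const (c z.1)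
  have e1 : (fun t => I.u (N' z.1) (I.P (t, gradient (I.u z.1) t)).1) =ᶠ[𝓝 z.2]
      fun t => I.u z.1 t + I.ℓ (t, gradient (I.u z.1) t) + c z.1 := by
    filter_upwards [c1.eventually h1] with t ht
    exact ht.2
  have e2 := congrArg (fun L => L v) ((dR.congr_of_eventuallyEq e1).unique dL)
  simp only [add_apply, ContinuousLinearMap.comp_apply, ContinuousLinearMap.prod_apply,
    ContinuousLinearMap.id_apply, ContinuousLinearMap.coe_fst'] at e2
  have e3 := h1.self_of_nhds.1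
  rw [← inner_gradient (I.u z.1), ← inner_gradient (I.u (N' z.1)), e3] at e2
  have e4 : I.P (lf I.u z) = I.P (z.2, gradient (I.u z.1) z.2) := rfl
  have e5 : lf I.u z = (z.2, gradient (I.u z.1) z.2) := rfl
  rw [e5] at e2 ⊢
  linarith

/-- exactness along the stable leaves -/
theorem exact_s : ∀ᶠ z in 𝓝 (0 : E2 × E2), ∀ v : E2,
    inner ℝ (I.P (lf' I.s z)).2 (fderiv ℝ I.P (lf' I.s z) (v, - hess (I.s z.1) z.2 v)).1
      - inner ℝ (- gradient (I.s z.1) z.2) v
      = fderiv ℝ I.ℓ (lf' I.s z) (v, - hess (I.s z.1) z.2 v) := by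
  obtain ⟨c, hc⟩ := I.P_leaf'
  have tN : Tendsto (fun z : E2 × E2 => (N z.1, (I.P (lf' I.s z)).1)) (𝓝 0) (𝓝 (0, 0)) := by
    refine Tendsto.prodMk_nhds ?_ ?_
    · have h1 : Tendsto N (𝓝 0) (𝓝 0) := by
        have := I.N_cont.tendsto
        rwa [I.N_zero] at this
      exact h1.comp (continuous_fst.tendsto (0 : E2 × E2))
    · exact (continuous_fst.tendsto (0 : E2 × E2)).comp (I.P_tendsto.comp I.lfs_tendsto)
  filter_upwards [hc.eventually_nhds, I.sJ.smooth, I.lfs_tendsto.eventually I.P_smooth,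
    I.lfs_tendsto.eventually I.ℓ_smooth, tN.eventually I.sJ.smooth] with z h1 h2 h3 h4 h5 v
  have c1 : Tendsto (fun t : E2 => (z.1, t)) (𝓝 z.2) (𝓝 z) := by
    have := (Continuous.prodMk_right z.1 : Continuous fun t : E2 => (z.1, t)).tendsto z.2
    exact this
  have d0 := hasFDerivAt_lf' h2
  have dP : HasFDerivAt (fun t => I.P (t, - gradient (I.s z.1) t)) _ z.2 :=
    (h3.differentiableAt (by simp) : DifferentiableAt ℝ I.P (lf' I.s z)).hasFDerivAt.comp z.2 d0
  have dℓ : HasFDerivAt (fun t => I.ℓ (t, - gradient (I.s z.1) t)) _ z.2 :=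
    (h4.differentiableAt (by simp) : DifferentiableAt ℝ I.ℓ (lf' I.s z)).hasFDerivAt.comp z.2 d0
  have dL : HasFDerivAt (fun t => I.s (N z.1) (I.P (t, - gradient (I.s z.1) t)).1) _ z.2 :=
    (h5.differentiableAt (by simp) :
      DifferentiableAt ℝ (I.s (N z.1)) (I.P (lf' I.s z)).1).hasFDerivAt.comp z.2 dP.fst
  have dR : HasFDerivAt (fun t => I.s z.1 t - I.ℓ (t, - gradient (I.s z.1) t) + c z.1) _ z.2 :=
    ((h2.differentiableAt (by simp)).hasFDerivAt.fun_sub dℓ).add_const (c z.1)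
  have e1 : (fun t => I.s (N z.1) (I.P (t, - gradient (I.s z.1) t)).1) =ᶠ[𝓝 z.2]
      fun t => I.s z.1 t - I.ℓ (t, - gradient (I.s z.1) t) + c z.1 := by
    filter_upwards [c1.eventually h1] with t ht
    exact ht.2
  have e2 := congrArg (fun L => L v) ((dR.congr_of_eventuallyEq e1).unique dL)
  simp only [sub_apply, ContinuousLinearMap.comp_apply, ContinuousLinearMap.prod_apply,
    ContinuousLinearMap.id_apply, ContinuousLinearMap.coe_fst', neg_apply] at e2
  have e3 := h1.self_of_nhds.1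
  rw [← inner_gradient (I.s z.1), ← inner_gradient (I.s (N z.1)), e3] at e2
  have e5 : lf' I.s z = (z.2, - gradient (I.s z.1) z.2) := rfl
  rw [e5] at e2 ⊢
  simp only [inner_neg_left] at e2 ⊢
  linarith

/-- the Poincaré map is exact symplectic, its potential is the travel time -/
theorem exP : ExG I.P I.ℓ := by
  refine ⟨I.P_zero, I.P_smooth, I.ℓ_smooth, ?_⟩
  have ty : Tendsto I.yh (𝓝 0) (𝓝 0) := by
    have := I.yh_cont.self_of_nhds.tendsto
    rwa [I.yh_zero] at this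
  have tx : Tendsto I.xh (𝓝 0) (𝓝 0) := by
    have := I.xh_cont.self_of_nhds.tendsto
    rwa [I.xh_zero] at this
  have t1 : Tendsto (fun z : E2 × E2 => (I.yh z, z.1)) (𝓝 0) (𝓝 (0, 0)) :=
    ty.prodMk_nhds (continuous_fst.tendsto (0 : E2 × E2))
  have t2 : Tendsto (fun z : E2 × E2 => (I.xh z, z.1)) (𝓝 0) (𝓝 (0, 0)) :=
    tx.prodMk_nhds (continuous_fst.tendsto (0 : E2 × E2))
  have t3 : Tendsto (fun z : E2 × E2 => ((I.xh z, I.yh z), z.1)) (𝓝 0) (𝓝 ((0, 0), 0)) :=
    (tx.prodMk_nhds ty).prodMk_nhds (continuous_fst.tendsto (0 : E2 × E2))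
  filter_upwards [t1.eventually I.exact_u, t2.eventually I.exact_s, t3.eventually I.star,
    I.leaf_yh, I.leaf_xh] with z h1 h2 h3 h4 h5
  simp only [lf, lf', h4, h5, neg_neg] at h1 h2
  have h6 := (h3 (by rw [h4, h5]; exact add_neg_cancel _)).1
  set A := hess (I.u (I.yh z)) z.1 with hA
  set S := hess (I.s (I.xh z)) z.1 with hS
  have hinv : (A + S).IsInvertible := (det_ne_zero_iff _).1 h6.ne'
  intro v
  -- decompose `v`
  let v1 : E2 := (A + S).inverse (v.2 + S v.1)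
  let v2 : E2 := v.1 - v1
  have e1 : (A + S) v1 = v.2 + S v.1 := self_apply_inverse hinv _
  have e2 : v = (v1, A v1) + (v2, - S v2) := by
    refine Prod.ext ?_ ?_
    · simp [v2]
    · simp only [Prod.snd_add, v2, map_sub]
      rw [add_apply] at e1
      have : A v1 = v.2 + S v.1 - S v1 := by rw [← e1]; abel
      rw [this]; abel
  have k1 := h1 v1
  have k2 := h2 v2
  have e3 : v.1 = v1 + v2 := by simp [v2]
  rw [e2, map_add, map_add, Prod.fst_add, inner_add_right, Prod.fst_add, inner_add_right]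
  linarith

end PFIn

theorem dyn : DynStmt := by
  intro N N' h I
  refine ⟨⟨I.exP.ngm, I.N'_zero, I.N'_cont, ?_, ?_⟩, ⟨I.exP, I.N_zero, I.N_cont, ?_, ?_⟩⟩
  · obtain ⟨c, hc⟩ := I.P_leaf
    refine ⟨fun y => - c y, ?_⟩
    filter_upwards [hc] with z hz
    have e1 : ngm I.P (lf (ng I.u) z) = ((I.P (lf I.u z)).1, -(I.P (lf I.u z)).2) := by
      rw [lf_ng, ngm]; simp only [neg_neg]; rfl
    have e2 : ngl I.ℓ (lf (ng I.u) z) = - I.ℓ (lf I.u z) := by
      rw [lf_ng, ngl]; simp only [neg_neg]; rfl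
    rw [e1, e2]
    refine ⟨?_, ?_⟩
    · rw [gradient_ng, hz.1]
    · change - I.u (N' z.1) (I.P (lf I.u z)).1 = - I.u z.1 z.2 + - I.ℓ (lf I.u z) + - c z.1
      rw [hz.2]; ring
  · obtain ⟨c, hc⟩ := I.ρ_inv
    refine ⟨c, ?_⟩
    filter_upwards [hc] with z hz
    have e1 : ∀ w, (ngm I.P (lf (ng I.u) w)).1 = (I.P (lf I.u w)).1 := fun w => by
      rw [lf_ng, ngm]; simp only [neg_neg]; rfl
    have e2 : ngl I.ℓ (lf (ng I.u) z) = - I.ℓ (lf I.u z) := by
      rw [lf_ng, ngl]; simp only [neg_neg]; rfl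
    simp only [e1, e2]
    rw [hz]; ring
  · obtain ⟨c, hc⟩ := I.P_leaf'
    refine ⟨fun y => - c y, ?_⟩
    filter_upwards [hc] with z hz
    have e1 : lf (ng I.s) z = lf' I.s z := lf_ng _ _
    rw [e1]
    refine ⟨?_, ?_⟩
    · rw [gradient_ng, hz.1, neg_neg]
    · change - I.s (N z.1) (I.P (lf' I.s z)).1 = - I.s z.1 z.2 + I.ℓ (lf' I.s z) + - c z.1
      rw [hz.2]; ring
  · obtain ⟨c, hc⟩ := I.ρ'_inv
    refine ⟨c, ?_⟩
    filter_upwards [hc] with z hz
    have e1 : ∀ w, lf (ng I.s) w = lf' I.s w := fun w => lf_ng _ _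
    simp only [e1]
    rw [hz]; ring

end Vale.Agent.P207.N3
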