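import Vale.Agent.P207.N3.H780.Chart

/-!
# P207, line N3, P3G: the determinant identity at a transversal intersection
-/

open Set Filter Topology Metric MeasureTheory
open scoped ContDiff

noncomputable section

namespace Vale.Agent.P207.N3

theorem clm_det_comp (A B : E2 →L[ℝ] E2) : (A ∘L B).det = A.det * B.det :=
  LinearMap.det_comp (A : E2 →ₗ[ℝ] E2) (B : E2 →ₗ[ℝ] E2)

theorem clm_det_neg (A : E2 →L[ℝ] E2) : (-A).det = A.det := by
  have h : ((-A : E2 →L[ℝ] E2) : E2 →ₗ[ℝ] E2) = (-1 : ℝ) • (A : E2 →ₗ[ℝ] E2) := by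
    ext v; simp
  change LinearMap.det ((-A : E2 →L[ℝ] E2) : E2 →ₗ[ℝ] E2) = LinearMap.det (A : E2 →ₗ[ℝ] E2)
  rw [h, LinearMap.det_smul]
  simp

/-- the adjoint has the same determinant -/
theorem clm_det_of_inner {A B : E2 →L[ℝ] E2} (h : ∀ v w, inner ℝ (A v) w = inner ℝ v (B w)) :
    A.det = B.det := by
  let b := (EuclideanSpace.basisFun (Fin 2) ℝ)
  have e : ∀ (C : E2 →L[ℝ] E2), C.det = (LinearMap.toMatrix b.toBasis b.toBasis C).det :=
    fun C => (LinearMap.det_toMatrix b.toBasis (C : E2 →ₗ[ℝ] E2)).symm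
  rw [e, e, ← Matrix.det_transpose]
  congr 1
  ext i j
  rw [Matrix.transpose_apply, LinearMap.toMatrix_apply, LinearMap.toMatrix_apply]
  simp only [OrthonormalBasis.coe_toBasis, OrthonormalBasis.coe_toBasis_repr_apply,
    OrthonormalBasis.repr_apply_apply, ContinuousLinearMap.coe_coe]
  rw [← real_inner_comm, h]

theorem clm_det_one_sub_comm (A B : E2 →L[ℝ] E2) :
    (1 - A ∘L B).det = (1 - B ∘L A).det := by
  let b := (EuclideanSpace.basisFun (Fin 2) ℝ)
  have e : ∀ (C D : E2 →L[ℝ] E2), (1 - C ∘L D).det =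
      (1 - LinearMap.toMatrix b.toBasis b.toBasis C * LinearMap.toMatrix b.toBasis b.toBasis D).det
      := by
    intro C D
    rw [← LinearMap.toMatrix_comp b.toBasis b.toBasis b.toBasis, ← LinearMap.toMatrix_one b.toBasis,
      ← map_sub, LinearMap.det_toMatrix]
    rfl
  rw [e, e]
  exact Matrix.det_one_sub_mul_comm _ _

/-- the determinant identity: `D` symplectic, the unstable direction graph of `U` becomes the graph
of `M` over the first factor, the stable direction graph of `-S` becomes the graph of `M'` over the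
second factor -/
theorem det_identity {D : E2 × E2 →L[ℝ] E2 × E2}
    (hD : ∀ a b, sympl (D a) (D b) = sympl a b) {U S M M' DQ DP : E2 →L[ℝ] E2}
    (hS : ∀ v w, inner ℝ (S v) w = inner ℝ v (S w))
    (hM : ∀ v w, inner ℝ (M v) w = inner ℝ v (M w))
    (h1 : ∀ v, D (v, U v) = (DQ v, M (DQ v)))
    (h2 : ∀ w, D (w, -S w) = (M' (DP w), DP w)) :
    (1 - M ∘L M').det * DQ.det * DP.det = (U + S).det := by
  have key : ∀ v w, inner ℝ ((DQ.adjoint ∘L (1 - M ∘L M') ∘L DP) w) v
      = inner ℝ (-((U + S) v)) w := by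
    intro v w
    have e := hD (v, U v) (w, -S w)
    rw [h1, h2] at e
    simp only [sympl] at e
    simp only [ContinuousLinearMap.comp_apply, ContinuousLinearMap.adjoint_inner_left, sub_apply,
      one_apply_eq_self, inner_sub_left, inner_neg_left, add_apply, inner_add_left]
    rw [hM, real_inner_comm (DQ v) (DP w), real_inner_comm (M (DQ v))]
    rw [inner_neg_right, ← hS] at e
    linarith
  have e1 := clm_det_of_inner (A := DQ.adjoint ∘L (1 - M ∘L M') ∘L DP) (B := -(U + S))
    (fun w v => by rw [key, real_inner_comm]; rfl)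
  have e2 : DQ.adjoint.det = DQ.det :=
    clm_det_of_inner fun v w => ContinuousLinearMap.adjoint_inner_left _ _ _
  rw [clm_det_comp, clm_det_comp, clm_det_neg, e2] at e1
  rw [← e1]; ring

end Vale.Agent.P207.N3
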