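import Vale.Agent.P207.N3.H250.Dyn0

/-!
# P207, line N3, P3G: the two sides of the exact chart
-/

open Set Filter Topology Metric MeasureTheory
open scoped ContDiff

noncomputable section

namespace Vale.Agent.P207.N3

theorem gradient_ng (u : E2 → E2 → ℝ) (y t : E2) :
    gradient (ng u y) t = - gradient (u y) t := by
  change rz (fderiv ℝ (fun t => - u y t) t) = - rz (fderiv ℝ (u y) t)
  rw [fderiv_fun_neg, map_neg]

theorem hess_ng (u : E2 → E2 → ℝ) (y t : E2) : hess (ng u y) t = - hess (u y) t := by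
  have h1 : gradient (ng u y) = fun t => - gradient (u y) t := funext (gradient_ng u y)
  rw [hess, h1, fderiv_fun_neg]
  rfl

theorem lf_ng (u : E2 → E2 → ℝ) (z : E2 × E2) : lf (ng u) z = (z.2, - gradient (u z.1) z.2) := by
  rw [lf, gradient_ng]

theorem JG.ng {u : E2 → E2 → ℝ} (hu : JG u) : JG (ng u) := hu.neg

namespace PFIn

variable {N N' : E2 → E2} {h : ℝ} (I : PFIn N N' h)

theorem uJ : JG I.u := JG.of_jc I.u_jc I.W_mem

theorem sJ : JG I.s := JG.of_jc I.s_jc I.W_mem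

theorem ρJ : JG I.ρ := JG.of_jc I.ρ_jc I.W_mem

theorem ρ'J : JG I.ρ' := JG.of_jc I.ρ'_jc I.W_mem

theorem lfu_tendsto : Tendsto (lf I.u) (𝓝 0) (𝓝 0) := by
  have h1 : ContinuousAt (fun z : E2 × E2 => (z.2, gradient (I.u z.1) z.2)) (0, 0) :=
    continuousAt_snd.prodMk I.uJ.gradient.contAt
  have h2 := h1.tendsto
  simp only [I.crit] at h2
  exact h2

theorem lfs_tendsto : Tendsto (lf' I.s) (𝓝 0) (𝓝 0) := by
  have h1 : ContinuousAt (fun z : E2 × E2 => (z.2, - gradient (I.s z.1) z.2)) (0, 0) :=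
    continuousAt_snd.prodMk I.sJ.gradient.contAt.neg
  have h2 := h1.tendsto
  simp only [I.crit', neg_zero] at h2
  exact h2

theorem det_pos0 : 0 < (hess (I.u 0) 0 + hess (I.s 0) 0).det := by
  have h1 := I.star.self_of_nhds
  have h2 := h1 (by
    change gradient (I.u 0) 0 + gradient (I.s 0) 0 = 0
    rw [I.crit, I.crit', add_zero])
  exact h2.1

theorem hess_inv : (hess (I.u 0) 0 + hess (I.s 0) 0).IsInvertible :=
  (det_ne_zero_iff _).1 I.det_pos0.ne'

theorem ϑ'_inv : (fderiv ℝ I.ϑ' 0).IsInvertible := by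
  refine isInvertible_of_injective fun w hw => ?_
  refine ext_inner_left ℝ fun v => ?_
  have h1 := self_apply_inverse I.hess_inv v
  have h2 := I.norm ((hess (I.u 0) 0 + hess (I.s 0) 0).inverse v) w
  rw [hw, inner_zero_right] at h2
  rw [inner_zero_right, ← h1]
  exact h2.symm

end PFIn

theorem sides : SidesStmt := by
  intro N N' h I
  have hU : ∀ᶠ t in 𝓝 (0 : E2), ContDiffAt ℝ ∞ (ng I.u 0) t := I.uJ.ng.slice
  have hS : ∀ᶠ t in 𝓝 (0 : E2), ContDiffAt ℝ ∞ (ng I.s 0) t := I.sJ.ng.slice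
  have gU : gradient (ng I.u 0) 0 = 0 := by rw [gradient_ng, I.crit, neg_zero]
  have gS : gradient (ng I.s 0) 0 = 0 := by rw [gradient_ng, I.crit', neg_zero]
  have eH : hess (ng I.u 0) 0 + hess (ng I.s 0) 0 = -(hess (I.u 0) 0 + hess (I.s 0) 0) := by
    rw [hess_ng, hess_ng]; abel
  have hinv : (hess (ng I.u 0) 0 + hess (ng I.s 0) 0).IsInvertible := by
    rw [← det_ne_zero_iff, eH, det_neg2]
    exact I.det_pos0.ne'
  obtain ⟨Φ, K, hΦ, ax, ax'⟩ := chart (ng I.u 0) (ng I.s 0) I.ϑ I.ϑ' hU hS I.ϑ_smooth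
    I.ϑ'_smooth gU gS I.ϑ_zero I.ϑ'_zero I.ϑ_inv hinv (by
      intro v w
      rw [I.norm, hess_ng, hess_ng]
      simp only [neg_apply, inner_add_left, inner_neg_left]
      ring)
  obtain ⟨Ψ, -, -, hΨ⟩ := hΦ.inv
  have hϑ'i := I.ϑ'_inv
  obtain ⟨τ, τ0, τs, ϑτ, -⟩ := exists_germ_inv I.ϑ_zero I.ϑ_smooth I.ϑ_inv
  obtain ⟨τ', τ'0, τ's, ϑ'τ', -⟩ := exists_germ_inv I.ϑ'_zero I.ϑ'_smooth hϑ'i
  have tτ : Tendsto τ (𝓝 0) (𝓝 0) := by
    have := τs.self_of_nhds.continuousAt.tendsto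
    rwa [τ0] at this
  have tτ' : Tendsto τ' (𝓝 0) (𝓝 0) := by
    have := τ's.self_of_nhds.continuousAt.tendsto
    rwa [τ'0] at this
  have tS : Tendsto (fun t : E2 => (t, - gradient (ng I.s 0) t)) (𝓝 0) (𝓝 0) := by
    have h1 : ContinuousAt (fun t : E2 => (t, - gradient (ng I.s 0) t)) 0 :=
      continuousAt_id.prodMk (contDiffAt_gradient hS.self_of_nhds).continuousAt.neg
    have h2 := h1.tendsto
    simp only [gS, neg_zero] at h2
    exact h2
  have tU : Tendsto (fun t : E2 => (t, gradient (ng I.u 0) t)) (𝓝 0) (𝓝 0) := by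
    have h1 : ContinuousAt (fun t : E2 => (t, gradient (ng I.u 0) t)) 0 :=
      continuousAt_id.prodMk (contDiffAt_gradient hU.self_of_nhds).continuousAt
    have h2 := h1.tendsto
    simp only [gU] at h2
    exact h2
  have tu : Tendsto (lf (ng I.u)) (𝓝 0) (𝓝 0) := by
    have h1 : ContinuousAt (fun z : E2 × E2 => (z.2, gradient (ng I.u z.1) z.2)) (0, 0) :=
      continuousAt_snd.prodMk I.uJ.ng.gradient.contAt
    have h2 := h1.tendsto
    simp only [gU] at h2
    exact h2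
  have ts : Tendsto (fun z : E2 × E2 => (z.2, - gradient (ng I.s z.1) z.2)) (𝓝 0) (𝓝 0) := by
    have h1 : ContinuousAt (fun z : E2 × E2 => (z.2, - gradient (ng I.s z.1) z.2)) (0, 0) :=
      continuousAt_snd.prodMk I.sJ.ng.gradient.contAt.neg
    have h2 := h1.tendsto
    simp only [gS, neg_zero] at h2
    exact h2
  refine ⟨Φ, K, ⟨hΦ, I.uJ.ng, I.ρJ, gU, I.ϑ_inv, ?_, ?_, ?_⟩,
    ⟨hΦ.swap, I.sJ.ng, I.ρ'J, gS, hϑ'i, ?_, ?_, ?_⟩⟩
  · filter_upwards [ax] with t ht
    exact ht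
  · -- label
    have tp : Tendsto (fun z => (Φ (lf (ng I.u) z)).2) (𝓝 0) (𝓝 0) :=
      (continuous_snd.tendsto (0 : E2 × E2)).comp (hΦ.tendsto.comp tu)
    have tt : Tendsto (fun z => τ' (Φ (lf (ng I.u) z)).2) (𝓝 0) (𝓝 0) := tτ'.comp tp
    filter_upwards [I.yh_leaf, tp.eventually ϑ'τ', tt.eventually I.label, tt.eventually ax',
      (tS.comp tt).eventually hΨ, tu.eventually hΨ] with z h1 h2 h3 h4 h5 h6 h7
    simp only [Function.comp] at h5
    have e1 : Φ (lf (ng I.u) z) = (0, (Φ (lf (ng I.u) z)).2) := Prod.ext h7 rfl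
    generalize (Φ (lf (ng I.u) z)).2 = p at *
    rw [h4, h2] at h5
    rw [e1, h5, lf_ng] at h6
    have e2 := congrArg Prod.fst h6
    have e3 := congrArg Prod.snd h6
    simp only [gradient_ng, neg_neg] at e2 e3
    rw [lf'] at h3
    simp only at h3
    rw [e3, neg_neg, e2] at h3
    have e4 : lf I.u z = (z.2, gradient (I.u z.1) z.2) := rfl
    rw [e4] at h1
    rw [← h1, h3, ← e2, h2]
  · obtain ⟨c, hc⟩ := I.dens
    refine ⟨c, ?_⟩
    filter_upwards [hc] with t ht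
    rw [ht]; simp only [ng]; ring
  · filter_upwards [ax'] with t ht
    rw [lf, sw]
    simp only [ht]
  · -- label, other side
    have tp : Tendsto (fun z : E2 × E2 => (Φ (z.2, - gradient (ng I.s z.1) z.2)).1) (𝓝 0) (𝓝 0) :=
      (continuous_fst.tendsto (0 : E2 × E2)).comp (hΦ.tendsto.comp ts)
    have tt : Tendsto (fun z : E2 × E2 => τ (Φ (z.2, - gradient (ng I.s z.1) z.2)).1)
      (𝓝 0) (𝓝 0) := tτ.comp tp
    filter_upwards [I.xh_leaf, tp.eventually ϑτ, tt.eventually I.label', tt.eventually ax,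
      (tU.comp tt).eventually hΨ, ts.eventually hΨ] with z h1 h2 h3 h4 h5 h6 h7
    simp only [Function.comp] at h5
    rw [h4, h2] at h5
    simp only [lf, sw] at h7 ⊢
    have e1 : Φ (z.2, - gradient (ng I.s z.1) z.2) =
      ((Φ (z.2, - gradient (ng I.s z.1) z.2)).1, 0) := Prod.ext rfl h7
    rw [e1, h5] at h6
    have e2 := congrArg Prod.fst h6
    have e3 := congrArg Prod.snd h6
    simp only [gradient_ng, neg_neg] at e2 e3
    rw [lf] at h3
    simp only [gradient_ng, neg_neg] at h3 h2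
    rw [e2] at h3 e3
    have e5 : gradient (I.u 0) z.2 = - gradient (I.s z.1) z.2 := by rw [← e3, neg_neg]
    rw [e5] at h3
    have e4 : lf' I.s z = (z.2, - gradient (I.s z.1) z.2) := rfl
    rw [e4] at h1
    simp only [gradient_ng, neg_neg]
    rw [← h2, e2, ← h3, h1]
  · obtain ⟨c, hc⟩ := I.dens'
    refine ⟨c, ?_⟩
    filter_upwards [hc] with t ht
    rw [ht]; simp only [ng]; ring

end Vale.Agent.P207.N3
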