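import Vale.Agent.P207.N3.H469.Chn
import Vale.Agent.P207.N3.H545.Lim
import Vale.Agent.P207.N3.Top.Defs

/-!
# P11 (3.5), second half: `C^j` bounds for all frames give the smooth alternative

helper780, line N3 of P207.  `smooth_of_all`: uniform `C^j` bounds of `N x` on the discs of radius
`2` for one large `j` imply `SmoothAlt T`.
-/

set_option maxSynthPendingDepth 3

open Set Filter Topology Metric
open scoped ContDiff

noncomputable section

namespace Vale.Agent.P207.N3.H780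

open Vale.Agent.P207.N3 Vale.Agent.P207.N3.H545 Vale.Agent.P207.N3.H469

variable {Γ X B : Type} [Group Γ] [MetricSpace X] [ProperSpace X] [MulAction Γ X]
  [IsIsometricSMul Γ X] [TopologicalSpace B] [CompactSpace B] [T2Space B] [MulAction Γ B]
  [ContinuousConstSMul Γ B]

variable {L : Leaf Γ X B}

/-- bound of the inverse derivative of the step on the closed disc of radius `r < 3` -/
theorem inv_step_le (L : Leaf Γ X B) {r : ℝ} (hr : r < 3) : ∃ b : ℝ, 0 ≤ b ∧ ∀ y,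
    ∀ u ∈ closedBall (0 : E2) r, ‖Sx L y (ts L) u‖ ≤ b := by
  obtain ⟨K, hK, hKΓ⟩ := L.cocompact
  have h23 : closedBall (0 : E2) r ⊆ ball 0 3 := closedBall_subset_ball hr
  have hcomp : IsCompact (K ×ˢ closedBall (0 : E2) r) := hK.prod (isCompact_closedBall _ _)
  have hc1 : ContinuousOn (fun p : X × E2 => fderiv ℝ (L.τ (L.φ (ts L) p.1) p.1) p.2)
      (K ×ˢ closedBall (0 : E2) r) := by
    have hmap : Continuous fun p : X × E2 => (((L.φ (ts L) p.1, p.1), p.2) : (X × X) × E2) := by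
      have h1 : Continuous fun p : X × E2 => L.φ (ts L) p.1 :=
        L.φ_cont.comp (by fun_prop : Continuous fun p : X × E2 => ((ts L, p.1) : ℝ × X))
      exact (h1.prodMk continuous_fst).prodMk continuous_snd
    refine (continuousOn_fderiv_tau L).comp hmap.continuousOn ?_
    rintro ⟨y, u⟩ ⟨_, hu⟩
    refine ⟨L.em_φ _ y, ?_⟩
    show u ∈ L.dm (L.φ (ts L) y) y
    rw [dm_step L (t1_le_ts L) y]
    exact h23 hu
  have hc2 : ContinuousOn (fun p : X × E2 => Sx L p.1 (ts L) p.2)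
      (K ×ˢ closedBall (0 : E2) r) := by
    rintro ⟨y, u⟩ hp
    have hu : IsUnit (fderiv ℝ (L.τ (L.φ (ts L) y) y) u) := by
      refine isUnit_fderiv_tau L (L.em_φ _ y) ?_
      rw [dm_step L (t1_le_ts L) y]
      exact h23 hp.2
    obtain ⟨v, hv⟩ := hu
    have h1 : ContinuousAt Ring.inverse (fderiv ℝ (L.τ (L.φ (ts L) y) y) u) := by
      rw [← hv]; exact NormedRing.inverse_continuousAt v
    exact ContinuousAt.comp_continuousWithinAt (g := Ring.inverse)
      (f := fun p : X × E2 => fderiv ℝ (L.τ (L.φ (ts L) p.1) p.1) p.2) h1 (hc1 (y, u) hp)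
  obtain ⟨b, hb⟩ := hcomp.exists_bound_of_continuousOn hc2
  refine ⟨max b 0, le_max_right _ _, ?_⟩
  intro y u hu
  obtain ⟨g, hg⟩ := hKΓ y
  have h1 := hb (g • y, u) ⟨hg, hu⟩
  have h2 : Sx L (g • y) (ts L) u = Sx L y (ts L) u := by
    unfold Sx
    rw [fderiv_tau_smul_step L g (t1_le_ts L) y (h23 hu)]
  simp only [h2] at h1
  exact h1.trans (le_max_left _ _)

/-- uniform `C^k` bounds of the inverse derivative of the step on the discs of radius `r < 3` -/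
theorem Sx_CkB' (L : Leaf Γ X B) (k : ℕ) {r : ℝ} (hr : r < 3) : ∃ c : ℝ, 0 ≤ c ∧ ∀ y,
    CkB k r c (Sx L y (ts L)) := by
  obtain ⟨b, hb0, hb⟩ := inv_step_le L hr
  have ht := t1_le_ts L
  have hcs : 0 ≤ cs L (k + 1) :=
    Finset.sum_nonneg fun j _ => zero_le_one.trans (one_le_cc L j)
  obtain ⟨K, hK0, hK⟩ := exists_inverse_bound.{0} k b (cs L (k + 1)) hb0 hcs
  refine ⟨K, hK0, fun y => ?_⟩
  have h23 : ball (0 : E2) r ⊆ ball 0 3 := ball_subset_ball hr.le
  have hunit : ∀ u ∈ ball (0 : E2) r, IsUnit (fderiv ℝ (L.τ (L.φ (ts L) y) y) u) := by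
    intro u hu
    refine isUnit_fderiv_tau L (L.em_φ _ y) ?_
    rw [dm_step L ht y]; exact h23 hu
  have hsm : ∀ u ∈ ball (0 : E2) r, ContDiffAt ℝ k (fderiv ℝ (L.τ (L.φ (ts L) y) y)) u := by
    intro u hu
    have h1 : ContDiffAt ℝ ∞ (L.τ (L.φ (ts L) y) y) u :=
      ((tau_step_smooth L ht y) u (h23 hu)).contDiffAt (isOpen_ball.mem_nhds (h23 hu))
    exact h1.fderiv_right (m := k) (by exact_mod_cast le_top)
  refine ⟨?_, ?_⟩
  · intro u hu
    obtain ⟨v, hv⟩ := hunit u hu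
    have h1 : ContDiffAt ℝ k Ring.inverse (fderiv ℝ (L.τ (L.φ (ts L) y) y) u) := by
      rw [← hv]; exact contDiffAt_ringInverse ℝ v
    exact (h1.comp u (hsm u hu)).contDiffWithinAt
  · intro i hi u hu
    refine hK (E2 →L[ℝ] E2) E2 (fderiv ℝ (L.τ (L.φ (ts L) y) y)) u (hsm u hu) (hunit u hu)
      (hb y u (ball_subset_closedBall hu)) ?_ i hi
    intro j h1 hj
    rw [norm_iteratedFDeriv_fderiv]
    exact (norm_iteratedFDeriv_tau_step_le L (by omega) ht y (h23 hu)).trans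
      (cc_le_cs L (by omega))

theorem CkB_mono_r {E W : Type*} [NormedAddCommGroup E] [NormedSpace ℝ E] [NormedAddCommGroup W]
    [NormedSpace ℝ W] {k : ℕ} {r r' C : ℝ} {f : E → W} (h : r ≤ r') (hf : CkB k r' C f) :
    CkB k r C f :=
  ⟨hf.1.mono (ball_subset_ball h), fun i hi u hu => hf.2 i hi u (ball_subset_ball h hu)⟩

/-- from the discs of radius `2` to the discs of radius `r < 3` -/
theorem CkB_wide (T : Tens L) {k : ℕ} (h : ∃ C : ℝ, ∀ x, CkB k 2 C (T.N x)) {r : ℝ} (hr : r < 3) :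
    ∃ C : ℝ, ∀ x, CkB k r C (T.N x) := by
  obtain ⟨C, hC⟩ := h
  have hC0 : 0 ≤ |C| := abs_nonneg C
  have hC' : ∀ x, CkB k 2 |C| (T.N x) := fun x =>
    ⟨(hC x).1, fun i hi u hu => ((hC x).2 i hi u hu).trans (le_abs_self C)⟩
  have ht := t1_le_ts L
  obtain ⟨c, hc0, hc⟩ := Sx_CkB' L k hr
  obtain ⟨K, hK0, hK⟩ := exists_CkB_comp k (cs L k)
  choose b hb using fun i => T.R_bound i (ts L)
  have hR : ∀ y, CkB k r (∑ i ∈ Finset.range (k + 1), |b i|) (T.R (L.φ (ts L) y) y) := by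
    intro y
    refine ⟨?_, fun i hi u hu => ?_⟩
    · have h1 := T.R_smooth (L.φ (ts L) y) y (L.em_φ _ y)
      rw [dm_step L ht y] at h1
      exact (h1.mono (ball_subset_ball hr.le)).of_le (by exact_mod_cast le_top)
    · refine (hb i y (ts L) ⟨ht, le_rfl⟩ u (ball_subset_ball hr.le hu)).trans
        ((le_abs_self _).trans ?_)
      exact Finset.single_le_sum (f := fun i => |b i|) (fun _ _ => abs_nonneg _)
        (Finset.mem_range.mpr (Nat.lt_succ_of_le hi))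
  have hb0 : 0 ≤ ∑ i ∈ Finset.range (k + 1), |b i| := Finset.sum_nonneg fun _ _ => abs_nonneg _
  set c' : ℝ := ‖ContinuousLinearMap.mulLeftRight ℝ (E2 →L[ℝ] E2)‖ * (2 ^ k * (c * c)) with hc'
  have hc'0 : 0 ≤ c' := by positivity
  have hconj : ∀ y, CkB k r c' (fun u => conjT (Sx L y (ts L) u)) := fun y =>
    CkB_bilin (ContinuousLinearMap.mulLeftRight ℝ (E2 →L[ℝ] E2)) (hc y) (CkB_star (hc y)) hc0 hc0
  have hcomp : ∀ y, CkB k r (K * |C|) (fun u => T.N y (L.τ (L.φ (ts L) y) y u)) := fun y => by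
    refine hK E2 E2 (E2 →L[ℝ] E2) (T.N y) (L.τ (L.φ (ts L) y) y) r 2 |C| (hC' y) ?_ ?_ ?_
    · intro u hu
      exact ball_subset_ball (by norm_num : (1 : ℝ) ≤ 2) (tau_step_mem L ht y
        (ball_subset_closedBall (ball_subset_ball hr.le hu)))
    · exact ((tau_step_smooth L ht y).mono (ball_subset_ball hr.le)).of_le
        (by exact_mod_cast le_top)
    · intro i h1 hi u hu
      exact (norm_iteratedFDeriv_tau_step_le L h1 ht y (ball_subset_ball hr.le hu)).trans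
        (cc_le_cs L hi)
  refine ⟨‖ContinuousLinearMap.id ℝ ((E2 →L[ℝ] E2) →L[ℝ] (E2 →L[ℝ] E2))‖ *
      (2 ^ k * (c' * (K * |C|))) +
    ‖ContinuousLinearMap.id ℝ ((E2 →L[ℝ] E2) →L[ℝ] (E2 →L[ℝ] E2))‖ *
      (2 ^ k * (c' * ∑ i ∈ Finset.range (k + 1), |b i|)), fun x => ?_⟩
  set y : X := L.φ (-(ts L)) x with hy
  have hxy : L.φ (ts L) y = x := by rw [hy, ← L.φ_add, add_neg_cancel, L.φ_zero]
  have h1 := CkB_bilin (ContinuousLinearMap.id ℝ ((E2 →L[ℝ] E2) →L[ℝ] (E2 →L[ℝ] E2))) (hconj y)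
    (hcomp y) hc'0 (by positivity)
  have h2 := CkB_neg (CkB_bilin (ContinuousLinearMap.id ℝ
    ((E2 →L[ℝ] E2) →L[ℝ] (E2 →L[ℝ] E2))) (hconj y) (hR y) hc'0 hb0)
  refine CkB_congr (CkB_add h1 h2) fun u hu => ?_
  have h3 := N_step T ht y (ball_subset_ball hr.le hu)
  have h4 : T.N x u = T.N (L.φ (ts L) y) u := by rw [hxy]
  exact h4.trans h3

/-- joint continuity of the derivatives from bounds of higher derivatives -/
theorem tendsto_iter (T : Tens L) {k : ℕ} {r C : ℝ} (hr : r < 3)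
    (hC : ∀ x, CkB (k + 1) r C (T.N x)) {x₀ : X} {u₀ : E2} (hu₀ : u₀ ∈ ball (0 : E2) r) :
    ContinuousAt (fun p : X × E2 => iteratedFDeriv ℝ k (T.N p.1) p.2) (x₀, u₀) := by
  have hpt : ∀ u ∈ ball (0 : E2) r, Tendsto (fun x => T.N x u) (𝓝 x₀) (𝓝 (T.N x₀ u)) := by
    intro u hu
    have h1 : ContinuousAt (fun p : X × E2 => T.N p.1 p.2) (x₀, u) :=
      T.N_cont.continuousAt ((isOpen_univ.prod isOpen_ball).mem_nhds
        ⟨mem_univ _, ball_subset_ball hr.le hu⟩)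
    exact h1.tendsto.comp ((tendsto_id (x := 𝓝 x₀)).prodMk_nhds tendsto_const_nhds)
  have h1 := (ck_pointwise (l := 𝓝 x₀) hC hpt).2 k le_rfl
  have h2 : ContinuousAt (iteratedFDeriv ℝ k (T.N x₀)) u₀ :=
    ((hC x₀).contDiffAt hu₀).continuousAt_iteratedFDeriv (by exact_mod_cast Nat.le_succ k)
  rw [Metric.tendstoUniformlyOn_iff] at h1
  rw [Metric.continuousAt_iff'] at h2 ⊢
  intro ε hε
  have h3 := h1 (ε / 2) (half_pos hε)
  have h4 := h2 (ε / 2) (half_pos hε)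
  rw [nhds_prod_eq]
  filter_upwards [h3.prod_inl (𝓝 u₀), h4.prod_inr (𝓝 x₀),
    (isOpen_ball.eventually_mem hu₀).prod_inr (𝓝 x₀)] with p hp1 hp2 hp3
  have h5 := hp1 p.2 hp3
  rw [dist_comm] at h5
  calc dist (iteratedFDeriv ℝ k (T.N p.1) p.2) (iteratedFDeriv ℝ k (T.N x₀) u₀)
      ≤ dist (iteratedFDeriv ℝ k (T.N p.1) p.2) (iteratedFDeriv ℝ k (T.N x₀) p.2) +
        dist (iteratedFDeriv ℝ k (T.N x₀) p.2) (iteratedFDeriv ℝ k (T.N x₀) u₀) :=
          dist_triangle _ _ _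
    _ < ε / 2 + ε / 2 := add_lt_add h5 hp2
    _ = ε := add_halves ε

/-- bounds of all derivatives on the discs of radius `2` give the smooth alternative -/
theorem smoothAlt_of_bounds (T : Tens L) (h : ∀ k, ∃ C : ℝ, ∀ x, CkB k 2 C (T.N x)) :
    SmoothAlt T := by
  refine ⟨fun y => ?_, fun k => ?_⟩
  · rw [contDiffOn_infty]
    intro k u hu
    obtain ⟨r, hur, hr3⟩ := exists_between (mem_ball_zero_iff.1 hu)
    obtain ⟨C, hC⟩ := CkB_wide T (h k) hr3
    exact ((hC y).contDiffAt (mem_ball_zero_iff.2 hur)).contDiffWithinAt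
  · rintro ⟨x₀, u₀⟩ ⟨-, hu⟩
    obtain ⟨r, hur, hr3⟩ := exists_between (mem_ball_zero_iff.1 hu)
    obtain ⟨C, hC⟩ := CkB_wide T (h (k + 1)) hr3
    exact (tendsto_iter T hr3 hC (mem_ball_zero_iff.2 hur)).continuousWithinAt

/-- **P11 (3.5), second half**: uniform `C^j` bounds of `N` on the discs of radius `2`, for one
`j ≥ j₀`, give the smooth alternative. -/
theorem smooth_of_all (T : Tens L) : ∃ j₀ : ℕ, ∀ j ≥ j₀, (∃ C : ℝ, ∀ x, CkB j 2 C (T.N x)) →
    SmoothAlt T := by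
  obtain ⟨j₀, hj₀⟩ := smooth_of_campa T
  refine ⟨j₀, fun j hj ⟨C, hC⟩ => smoothAlt_of_bounds T fun k => ?_⟩
  exact hj₀ j hj C (fun x => campa_of_CkB (hC x).1 fun i hi u hu => (hC x).2 i hi u hu) k

end Vale.Agent.P207.N3.H780
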